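import Vale.Agent.P329.Defs
import Vale.Agent.P329.H616.LookZ.Defs
import Vale.Agent.P329.H616.LookZ.Rule

namespace Vale.Agent.Results.P329.LookMarkers

open Vale.Agent.P329 Vale.Agent.P329.LookZ

/-- Marks are the windows of length `m` in `U`, boundaries are the last marks of the clusters of
marks, zones are the factors between consecutive boundaries (with the window which closes them).
The type of a zone `v` consists of two arbitrary colours `c₁ v`, `c₂ v` and its length modulo `P`.
(1) For every `n` there is `K` such that for all `a`, `b`, `P`, `W` there is `N` such that for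
every automaton with `n` states over a finite alphabet, all sets `U` of words, all `0 < m`, `T`, `C`
with `m = 1` or `N + m ≤ T`, all `c₁`, `c₂` and every property `Φ` of the type words the accepted
words in which every factor of length `C` has a good factor form a language of generalized star
height at most one. Here a boundary is big if the types of the next `W` zones satisfy `Φ`.
(2) For every `n` there is `k` such that for all `a`, `b`, `P` there is `N` such that (same data,
no big boundaries) the accepted words in which every factor of length `C` has a rich factor form a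
language of generalized star height at most one: a rich word has a row of consecutive zones whose
type word is not a product of `N` words with a period at most `k`, later `2 * k` plain zones and
later again such a row. -/
theorem result :
    (∀ n : ℕ, ∃ K : ℕ, ∀ a b P W : ℕ, 0 < P → 0 < W → ∃ N : ℕ, ∀ (α : Type) [Finite α]
      (A : DFA α (Fin n)) (U : Set (List α)) (m T C : ℕ) (c₁ : List α → Fin a)
      (c₂ : List α → Fin b) (Φ : List (Fin a × Fin b × ZMod P) → Prop),
      0 < m → (m = 1 ∨ N + m ≤ T) →
        ∃ x : GRE α, x.height ≤ 1 ∧ x.lang = {w : List α | w ∈ A.accepts ∧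
          ∀ u : List α, u <:+: w → u.length = C →
            ∃ g, Good U m T c₁ c₂ P W Φ K N g ∧ g <:+: u}) ∧
    (∀ n : ℕ, ∃ k : ℕ, ∀ a b P : ℕ, 0 < P → ∃ N : ℕ, ∀ (α : Type) [Finite α]
      (A : DFA α (Fin n)) (U : Set (List α)) (m T C : ℕ) (c₁ : List α → Fin a)
      (c₂ : List α → Fin b), 0 < m → (m = 1 ∨ N + m ≤ T) →
        ∃ x : GRE α, x.height ≤ 1 ∧ x.lang = {w : List α | w ∈ A.accepts ∧
          ∀ u : List α, u <:+: w → u.length = C →
            ∃ g, Rich U m T c₁ c₂ P k N g ∧ g <:+: u}) := by
  refine ⟨fun n => ?_, fun n => ?_⟩
  · obtain ⟨K, -, H⟩ := regular_look n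
    refine ⟨K, fun a b P W hP hW => ?_⟩
    obtain ⟨N, -, H⟩ := H (Fin a) (Fin b) P W hP hW
    exact ⟨N, fun α _ A U m T C c₁ c₂ Φ hm hT => H α _ Slow.cls_SH A U m T c₁ c₂ hm hT Φ C⟩
  · obtain ⟨k, -, H⟩ := regular_rich n
    refine ⟨k, fun a b P hP => ?_⟩
    obtain ⟨N, -, H⟩ := H (Fin a) (Fin b) P hP
    exact ⟨N, fun α _ A U m T C c₁ c₂ hm hT => H α _ Slow.cls_SH A U m T c₁ c₂ hm hT C⟩

end Vale.Agent.Results.P329.LookMarkers
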