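import Vale.Agent.P329.ClassDefs
import Vale.Agent.P329.S4.Class
import Vale.Agent.P329.H157.ReesDef
import Vale.Agent.P329.H434.CtxN
import Vale.Agent.P329.H320.Final
import Vale.Agent.P329.H320.OfK
import Vale.Agent.P329.H434.RowK
import Vale.Agent.P329.H962.Fin
import Vale.Agent.P329.H112.Cls
import Vale.Agent.P329.H112.Mal
import Vale.Agent.P329.H112.Mon

namespace Vale.Agent.Results.P329.NilpotentGroups

open Vale.Agent.P329 Vale.Agent.P329.H112

/-- (1) Every language recognised by a finite nilpotent group (of any nilpotency class and any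
order) has generalized star height at most one.
(2) The same holds for every finite monoid with a relational morphism to a finite nilpotent group
such that the elements related to `1` are aperiodic.
(3) The same holds for all divisors of finite direct products of finite groups, each of which is
nilpotent, or has a homomorphism to the symmetric group on three points whose kernel has exponent
at most two, or is abelian-by-(elementary abelian `p`); and more generally for the languages
defined by a star-free language of the words annotated by the values of their prefixes in such a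
group.
(4) Products in a finite nilpotent group where the factor of a position depends on the letter and
on the `c` letters before it, and, in a finite `p`-group, also on the position modulo `p ^ l`;
star-free languages of the words annotated by these products.
(5) Languages recognised by Rees matrix semigroups with zero over a finite nilpotent group.
(6) For finite `2`-groups, the products (4) for the words of a labelled star-free prefix code in
place of the letters.
(7) Languages recognised by a finite monoid `M`, if the image in `M` of a nonempty word `v` is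
aperiodic as soon as reading `v` after some word `u` restores the value in a group as in (3) and
the positions modulo `n`, the last `c` letters and the values of finitely many products as
in (4). -/
theorem result :
    (∀ (α : Type) [Finite α] (G : Type) [Group G] [Finite G], Group.IsNilpotent G →
      ∀ (f : α → G) (S : Set G), HeightLeOne {w : List α | (w.map f).prod ∈ S}) ∧
    (∀ (α : Type) [Finite α] (M G : Type) [Monoid M] [Finite M] [Group G] [Finite G],
      Group.IsNilpotent G → ∀ R : Submonoid (M × G), (∀ m, ∃ g, (m, g) ∈ R) →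
        (∀ m, (m, 1) ∈ R → ∃ k, m ^ (k + 1) = m ^ k) → ∀ (φ : α → M) (S : Set M),
          HeightLeOne {w : List α | (w.map φ).prod ∈ S}) ∧
    (∀ (α : Type) [Finite α] (G : Type) [Group G], DividesProduct G → ∀ f : α → G,
      (∀ S : Set G, HeightLeOne {w : List α | (w.map f).prod ∈ S}) ∧
      (∀ e : GRE (G × α), e.height = 0 →
        HeightLeOne {w : List α |
          (w.zipIdx.map fun x => (((w.take x.2).map f).prod, x.1)) ∈ e.lang})) ∧
    (∀ (α : Type) [Finite α] (G : Type) [Group G] [Finite G] (n : ℕ),
      (n = 1 ∧ Group.IsNilpotent G ∨ ∃ p l, p.Prime ∧ IsPGroup p G ∧ n = p ^ l) →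
      ∀ (c : ℕ) (ψ : ZMod n → List α → α → G),
        (∀ S : Set G, HeightLeOne {w : List α | ctxProdN n c ψ w ∈ S}) ∧
        (∀ e : GRE (G × α), e.height = 0 →
          HeightLeOne {w : List α |
            (w.zipIdx.map fun x => (ctxProdN n c ψ (w.take x.2), x.1)) ∈ e.lang})) ∧
    (∀ (α : Type) [Finite α] (G I Λ : Type) [Group G] [Finite G] [Finite I] [Finite Λ],
      Group.IsNilpotent G → ∀ (P : Λ → I → Option G) (f : α → Option (I × G × Λ))
        (S : Set (Option (I × G × Λ))),
          HeightLeOne {w : List α | ∃ a u, w = a :: u ∧ (u.map f).foldl (reesMul P) (f a) ∈ S}) ∧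
    (∀ (α B : Type) [Finite α] [Finite B] (D : B → Set (List α)),
      (∀ b, ∃ e : GRE α, e.height = 0 ∧ e.lang = D b) → (∀ b, [] ∉ D b) →
      (∀ b b' u u' t t', u ∈ D b → u' ∈ D b' → u ++ t = u' ++ t' → b = b' ∧ u = u') →
      (∀ (v : List α) (j : ℕ) (L : List (B × List α)), 2 ≤ j → (∀ x ∈ L, x.2 ∈ D x.1) →
        (L.map Prod.snd).flatten = (List.replicate j v).flatten →
        (∀ i, 1 ≤ i → i < j → ¬ ∃ L' : List (B × List α), (∀ x ∈ L', x.2 ∈ D x.1) ∧
          (L'.map Prod.snd).flatten = (List.replicate i v).flatten) → Odd L.length) →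
      ∀ (G : Type) [Group G] [Finite G], IsPGroup 2 G →
        ∀ (l c : ℕ) (ψ : ZMod (2 ^ l) → List B → B → G) (S : Set G),
          HeightLeOne {w : List α | ∃ L : List (B × List α), (∀ x ∈ L, x.2 ∈ D x.1) ∧
            (L.map Prod.snd).flatten = w ∧ ctxProdN (2 ^ l) c ψ (L.map Prod.fst) ∈ S}) ∧
    (∀ (α : Type) [Finite α] (G : Type) [Group G], DividesProduct G →
      ∀ (f : α → G) (κ : Type) [Finite κ] (K : κ → Type) [∀ j, Group (K j)]
        [∀ j, Finite (K j)] (n : κ → ℕ),
        (∀ j, n j = 1 ∧ Group.IsNilpotent (K j) ∨
          ∃ p l, p.Prime ∧ IsPGroup p (K j) ∧ n j = p ^ l) →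
        ∀ (c : κ → ℕ) (ψ : ∀ j, ZMod (n j) → List α → α → K j)
          (M : Type) [Monoid M] [Finite M] (φ : α → M),
          (∀ u v : List α, v ≠ [] → (v.map f).prod = 1 →
            (∀ j, n j ∣ v.length ∧
              (u ++ v).drop ((u ++ v).length - c j) = u.drop (u.length - c j) ∧
              ctxProdN (n j) (c j) (ψ j) (u ++ v) = ctxProdN (n j) (c j) (ψ j) u) →
            ∃ k, (v.map φ).prod ^ (k + 1) = (v.map φ).prod ^ k) →
          ∀ S : Set M, HeightLeOne {w : List α | (w.map φ).prod ∈ S}) := by
  obtain ⟨h1, h2, h3, h4, h5⟩ := H320.final H112.core_all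
  refine ⟨h1, ?_, ?_, h3, h4, h5, ?_⟩
  · intro α _ M G _ _ _ _ hG R hR hap φ S
    exact H112.nil_mon hG R hR hap φ S
  · rintro α _ G _ ⟨ι, hι, H, hg, hH, D, π, hπ⟩ f
    haveI : ∀ i, Finite (H i) := fun i => (hH i).1
    exact h2 α ι H (fun i => (hH i).2) D G π hπ f
  · rintro α _ G _ ⟨ι, hι, H, hg, hH, D, π, hπ⟩ f κ _ K _ _ n hn c ψ M _ _ φ hap S
    haveI : ∀ i, Finite (H i) := fun i => (hH i).1
    exact H112.ctx_mon (fun i => (hH i).2) D π hπ f n hn c ψ φ hap S

end Vale.Agent.Results.P329.NilpotentGroups
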