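import Vale.Agent.P329.H259.Equiv
import Vale.Agent.P329.H259.Twist
import Vale.Agent.P329.H548.Mono

namespace Vale.Agent.Results.P329.SingleStar

open Vale.Agent.P329 (GRE)
open Vale.Agent.P329.H259

/-- Structure of group languages of bounded generalized star height.
`kst K` is the Kleene star, `Syn S` the syntactic congruence of `S`, and `GroupHeight h` says that
every language recognised by a finite group over a finite alphabet has height at most `h`. -/
theorem result :
    -- (1) collapse of concatenations outside the outermost stars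
    (∀ (α G : Type) [Group G] [Finite G] (f : α → G) (S : Set G) (h : ℕ),
      (∃ x : GRE α, x.height ≤ h + 1 ∧ x.lang = {w | (w.map f).prod ∈ S}) ↔
      ∃ E : List (GRE α), (∀ e ∈ E, e.height ≤ h) ∧
        ∀ u v : List α, (∀ e ∈ E, Syn (kst e.lang) u v) →
          ((u.map f).prod ∈ S ↔ (v.map f).prod ∈ S)) ∧
    -- (2) one star suffices for nonabelian simple groups
    (∀ (α G : Type) [Group G] [Finite G] [IsSimpleGroup G] (f : α → G) (S : Set G) (h : ℕ),
      (∃ a b : G, a * b ≠ b * a) →
      Function.Surjective (fun w : List α => (w.map f).prod) → S ≠ ∅ → S ≠ Set.univ →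
      ((∃ x : GRE α, x.height ≤ h + 1 ∧ x.lang = {w | (w.map f).prod ∈ S}) ↔
      ∃ e : GRE α, e.height ≤ h ∧
        ∀ u v : List α, Syn (kst e.lang) u v → (u.map f).prod = (v.map f).prod)) ∧
    -- (3) the hereditary principle
    (∀ (α β G : Type) [Finite β] [Group G] [Finite G] (f : α → G) (ι : β → α) (e : GRE α),
      (∀ u v : List α, Syn (kst e.lang) u v → (u.map f).prod = (v.map f).prod) →
      ∃ e' : GRE β, e'.height ≤ e.height ∧ e'.lang = {w | w.map ι ∈ e.lang} ∧
        (∀ u v : List β, Syn (kst e'.lang) u v → Syn e.lang (u.map ι) (v.map ι) →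
          ((u.map ι).map f).prod = ((v.map ι).map f).prod) ∧
        (e.height = 0 → ∀ u v : List β, Syn (kst e'.lang) u v →
          ((u.map ι).map f).prod = ((v.map ι).map f).prod)) ∧
    -- (4) every level: one star over the alphabet of all elements of an alternating group
    (∀ h : ℕ, GroupHeight (h + 1) ↔
      ∀ N : ℕ, ∃ n, N ≤ n ∧ ∃ e : GRE (alternatingGroup (Fin n)), e.height ≤ h ∧
        ∀ u v : List (alternatingGroup (Fin n)), Syn (kst e.lang) u v → u.prod = v.prod) ∧
    -- (5) every level, every finite group: one outermost star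
    (∀ h : ℕ, GroupHeight (h + 1) ↔
      ∀ (α : Type) [Finite α] (G : Type) [Group G] [Finite G] (f : α → G),
      ∃ (e : GRE α) (F : List (GRE α)), e.height ≤ h ∧ (∀ g ∈ F, g.height ≤ h) ∧
        ∀ u v : List α, Syn (kst e.lang) u v → (∀ g ∈ F, Syn g.lang u v) →
          (u.map f).prod = (v.map f).prod) ∧
    -- (6) level one, every finite group: one star of one star-free language
    (GroupHeight 1 ↔
      ∀ (α : Type) [Finite α] (G : Type) [Group G] [Finite G] (f : α → G),
      ∃ e : GRE α, e.height = 0 ∧
        ∀ u v : List α, Syn (kst e.lang) u v → (u.map f).prod = (v.map f).prod) ∧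
    -- (7) necessary condition: the values of `K*` form a subgroup `H` whose coset graph is
    -- aperiodic off the base point, and the preimage of `H` is the star of a star-free language
    (∀ (α G : Type) [Finite α] [Group G] [Finite G] (f : α → G) (e : GRE α),
      Function.Surjective (fun w : List α => (w.map f).prod) → e.height = 0 →
      (∀ u v : List α, Syn (kst e.lang) u v → (u.map f).prod = (v.map f).prod) →
      ∃ H : Subgroup G, (∀ g : G, g ∈ H ↔ ∃ w ∈ kst e.lang, (w.map f).prod = g) ∧
        (∀ (v : List α) (k : G), (∃ (i : ℕ) (p q : List α),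
          p ++ q = (List.replicate i v).flatten ∧ k * (p.map f).prod ∈ H) ∨
          k * (v.map f).prod * k⁻¹ ∈ H) ∧
        ∃ e' : GRE α, e'.height = 0 ∧ kst e'.lang = {w | (w.map f).prod ∈ H}) ∧
    -- (8) for a nonabelian simple group and a letter of even order, `K*` takes all values
    (∀ (α G : Type) [Group G] [Finite G] [IsSimpleGroup G] (f : α → G) (e : GRE α),
      (∃ a b : G, a * b ≠ b * a) → (∃ a : α, Even (orderOf (f a))) →
      Function.Surjective (fun w : List α => (w.map f).prod) → e.height = 0 →
      (∀ u v : List α, Syn (kst e.lang) u v → (u.map f).prod = (v.map f).prod) →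
      ∀ g : G, ∃ w ∈ kst e.lang, (w.map f).prod = g) ∧
    -- (9) over the alphabet of all elements: a normal subgroup of index one or a prime
    (∀ (G : Type) [Group G] [Finite G] (e : GRE G), e.height = 0 →
      (∀ u v : List G, Syn (kst e.lang) u v → u.prod = v.prod) →
      ∃ H : Subgroup G, H.Normal ∧ (H.index = 1 ∨ H.index.Prime) ∧
        ∀ g : G, g ∈ H ↔ ∃ w ∈ kst e.lang, w.prod = g) ∧
    -- (10) the condition of (6) holds for every finite abelian group
    (∀ (α : Type) [Finite α] (G : Type) [CommGroup G] [Finite G] (f : α → G),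
      ∃ e : GRE α, e.height = 0 ∧
        ∀ u v : List α, Syn (kst e.lang) u v → (u.map f).prod = (v.map f).prod) ∧
    -- (11) and for letters acting by permutations which move no nonzero point upwards
    (∀ (α G : Type) [Finite α] [Group G] (n : ℕ) (ι : G →* Equiv.Perm (Fin (n + 1)))
      (f : α → G), Function.Injective ι → (∀ a z, z ≠ 0 → ι (f a) z ≤ z) →
      (∃ e : GRE α, e.height = 0 ∧
        ∀ u v : List α, Syn (kst e.lang) u v → (u.map f).prod = (v.map f).prod) ∧
      ∀ S : Set G, ∃ x : GRE α, x.height ≤ 1 ∧ x.lang = {w | (w.map f).prod ∈ S}) ∧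
    -- (12) in particular for the symmetric groups with a long cycle and a transposition
    (∀ n : ℕ, ∃ f : Bool → Equiv.Perm (Fin (n + 2)), f true = (finRotate (n + 2))⁻¹ ∧
      f false = Equiv.swap 0 1 ∧ Subgroup.closure (Set.range f) = ⊤ ∧
      ∀ S : Set (Equiv.Perm (Fin (n + 2))),
        ∃ x : GRE Bool, x.height ≤ 1 ∧ x.lang = {w | (w.map f).prod ∈ S}) := by
  refine ⟨?_, ?_, ?_, ?_, ?_, ?_, ?_, ?_, ?_, ?_, ?_, ?_⟩
  · intro α G _ _ f S h
    constructor
    · rintro ⟨x, hx, hl⟩
      obtain ⟨E, hE, hE'⟩ := collapse_mp (hom_prod f) S h x hx hl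
      exact ⟨E, hE, fun u v huv => (hE' u v huv).mem⟩
    · rintro ⟨E, hE, hE'⟩
      exact collapse_mpr h E hE _ hE'
  · intro α G _ _ _ f S h hG hs h0 h1
    exact ⟨single_mp hG (hom_prod f) hs S h0 h1 h, single_mpr S h⟩
  · intro α β G _ _ _ f ι e hf
    obtain ⟨e', he', hl⟩ := restrict ι e
    refine ⟨e', he', hl, ?_, ?_⟩
    · intro u v huv hg
      rw [hl] at huv
      exact hered_gen ι (FQ.lang e) (hom_prod f) hf u v huv hg
    · intro h0 u v huv
      rw [hl] at huv
      exact hered ι (FQ.lang e) (PP.starfree e h0) (hom_prod f) hf u v huv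
  · intro h
    exact ⟨fun H N => ⟨max N 5, le_max_left _ _, alt_of_all h H (max N 5) (le_max_right _ _)⟩,
      all_of_alt h⟩
  · intro h
    exact ⟨fun H α _ G _ _ f => one_of_all h H α G f, all_of_one h⟩
  · constructor
    · intro H α _ G _ _ f
      exact one_of_all_zero H α G f
    · intro H α _ G _ _ f S
      obtain ⟨e, he, hf⟩ := H α G f
      exact single_mpr S 0 ⟨e, le_of_eq he, hf⟩
  · intro α G _ _ _ f e hs h0 hf
    have htw := twist (hom_prod f) hs (FQ.lang e) (PP.starfree e h0) hf
    refine ⟨valSub (hom_prod f) e.lang, fun g => Iff.rfl, ?_, offroot (hom_prod f) _ htw⟩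
    intro v k
    rcases htw v k with ⟨i, p, q, hpq, h⟩ | h
    · exact Or.inl ⟨i, p, q, by rw [hpq, flatten_replicate], h⟩
    · exact Or.inr h
  · intro α G _ _ _ f e hG ha hs h0 hf g
    obtain ⟨a, ha⟩ := ha
    have htw := twist_letter (hom_prod f) hs (FQ.lang e) (PP.starfree e h0) hf a
    have hv : ([a].map f).prod = f a := by simp
    have htop := val_top hG (valSub (hom_prod f) e.lang) (([a].map f).prod)
      (by rw [hv]; exact ha) htw
    have hg : g ∈ valSub (hom_prod f) e.lang := by rw [htop]; exact Subgroup.mem_top g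
    exact hg
  · intro G _ _ e h0 hf
    have hid : ∀ w : List G, (w.map id).prod = w.prod := fun w => by rw [List.map_id]
    have hs : Function.Surjective (fun w : List G => (w.map id).prod) :=
      fun g => ⟨[g], by simp⟩
    have htw := twist_letter (hom_prod (id : G → G)) hs (FQ.lang e) (PP.starfree e h0)
      (fun u v huv => by
        change (u.map id).prod = (v.map id).prod
        rw [hid, hid]; exact hf u v huv)
    have hip := index_prime (valSub (hom_prod (id : G → G)) e.lang) (by
      intro g k
      have h := htw g k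
      have hv : ([g].map id).prod = g := by simp
      rwa [hv] at h)
    refine ⟨valSub (hom_prod (id : G → G)) e.lang, hip.1, hip.2, ?_⟩
    intro g
    constructor
    · rintro ⟨w, hw, h⟩
      exact ⟨w, hw, (hid w).symm.trans h⟩
    · rintro ⟨w, hw, h⟩
      exact ⟨w, hw, (hid w).trans h⟩
  · intro α _ G _ _ f
    exact Vale.Agent.P329.H548.one_star_comm α G f
  · intro α G _ _ n ι f hι hf
    obtain ⟨e, he, -, hg⟩ := Vale.Agent.P329.H548.mono_good (fun a => ι (f a)) hf
    have hgood : ∀ u v : List α, Syn (kst e.lang) u v → (u.map f).prod = (v.map f).prod := by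
      intro u v huv
      apply hι
      have := hg u v huv
      rw [map_list_prod, map_list_prod, List.map_map, List.map_map]
      exact this
    refine ⟨⟨e, he, hgood⟩, fun S => Vale.Agent.P329.H548.height_one he _ ?_⟩
    intro u v huv
    change (u.map f).prod ∈ S ↔ (v.map f).prod ∈ S
    rw [hgood u v huv]
  · intro n
    refine ⟨Vale.Agent.P329.H548.two n, rfl, rfl, Vale.Agent.P329.H548.two_closure n,
      fun S => ?_⟩
    obtain ⟨e, he, -, hg⟩ := Vale.Agent.P329.H548.mono_good (Vale.Agent.P329.H548.two n)
      (Vale.Agent.P329.H548.two_mono n)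
    apply Vale.Agent.P329.H548.height_one he
    intro u v huv
    change (u.map (Vale.Agent.P329.H548.two n)).prod ∈ S ↔
      (v.map (Vale.Agent.P329.H548.two n)).prod ∈ S
    rw [hg u v huv]

end Vale.Agent.Results.P329.SingleStar
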