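import Vale.Agent.P329.Defs
import Vale.Agent.P329.H730.Defs
import Vale.Agent.P329.H730.Final

namespace Vale.Agent.Results.P329.UnclockedMarkers

open Vale.Agent.P329 Vale.Agent.P329.H730

/-- For every `n` there is `N` such that for every automaton with `n` states over a finite
alphabet, all sets `S`, `T` of words and all `0 < m ≤ K`, `m ≤ h` and `C` the following holds.
Let the marks be the windows of length `m` in `S` and the big marks the windows of length `h` in
`T`, where each big mark starts with a mark and has a mark in each factor of length `K`. Then the
accepted words in which every factor of length `C` contains a good block (a block between two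
consecutive big marks which contains `N` consecutive long gaps between clusters of marks) form a
language of generalized star height at most one. -/
theorem result : ∀ n : ℕ, ∃ N : ℕ, ∀ (α : Type) [Finite α] (A : DFA α (Fin n))
    (S T : Set (List α)) (m K h C : ℕ), 0 < m → m ≤ K → m ≤ h → BigMarks S T m K h →
      ∃ x : GRE α, x.height ≤ 1 ∧ x.lang = {w : List α | w ∈ A.accepts ∧
        ∀ u : List α, u <:+: w → u.length = C → ∃ g, GoodBlock S T m K h N g ∧ g <:+: u} := by
  intro n
  obtain ⟨N, hN⟩ := regular_free n
  exact ⟨N, fun α _ A S T m K h C hm hK hh hB =>
    hN α _ Slow.cls_SH A S T m K h (hB.bg hm hK hh) C⟩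

end Vale.Agent.Results.P329.UnclockedMarkers
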